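import Vale.Agent.Lib.P201.FKDefs

namespace Vale.Agent.Lib.P201

open MonoidAlgebra

lemma mk_act {G X : Type*} [Group G] {N : Subgroup G} [N.Normal] {t : X → G}
    {len : G → ℕ} (hl : IsLen N t len) (y : X × Bool) (g : G) :
    QuotientGroup.mk' N (act t y g) = QuotientGroup.mk' N g := by
  have h1 : QuotientGroup.mk' N (t y.1) = 1 := by
    rw [QuotientGroup.mk'_apply]
    exact (QuotientGroup.eq_one_iff _).2 (hl.mem y.1)
  unfold act
  split_ifs
  · rw [map_mul, h1, one_mul]
  · rw [map_mul, map_inv, h1, inv_one, one_mul]

lemma edge_term {K G X : Type*} [Ring K] [Group G] (t : X → G) (y : X × Bool) (g0 : G)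
    (α : K) : ∃ (q : G) (β : K), (q = g0 ∨ q = act t y g0) ∧
      (t y.1 * q = g0 ∨ t y.1 * q = act t y g0) ∧
      (single (t y.1) (1 : K) - 1) * single q β = single g0 α - single (act t y g0) α := by
  obtain ⟨x, b⟩ := y
  cases b
  · refine ⟨(t x)⁻¹ * g0, α, Or.inr (by simp [act]), Or.inl (by simp), ?_⟩
    simp [act, sub_mul, single_mul_single]
  · refine ⟨g0, -α, Or.inl rfl, Or.inr (by simp [act]), ?_⟩
    simp [act, sub_mul, single_mul_single]

lemma decomp_aux {K G X : Type*} [Ring K] [Group G] {N : Subgroup G} [N.Normal] {t : X → G}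
    {len : G → ℕ} (hl : IsLen N t len) : ∀ (n : ℕ) (T : Finset G), T.card = n →
    DownClosed t len T → ∀ (a : MonoidAlgebra K G), a.coeff.support ⊆ T →
    mapDomainRingHom K (QuotientGroup.mk' N) a = 0 →
    ∃ c : X →₀ MonoidAlgebra K G,
      a = c.sum (fun x cx => (single (t x) (1 : K) - 1) * cx) ∧
      ∀ x, ∀ h ∈ (c x).coeff.support, h ∈ T ∧ t x * h ∈ T := by
  classical
  intro n
  induction n with
  | zero =>
    intro T hcard _ a ha _
    have hT0 : T = ∅ := Finset.card_eq_zero.1 hcard
    have ha0 : a = 0 := by
      rw [hT0, Finset.subset_empty, Finsupp.support_eq_empty] at ha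
      exact coeff_eq_zero.1 ha
    exact ⟨0, by simp [ha0], by simp⟩
  | succ n ih =>
    intro T hcard hT a ha hπ
    have hTne : T.Nonempty := by
      rw [← Finset.card_pos, hcard]; omega
    obtain ⟨g0, hg0T, hmax⟩ := Finset.exists_max_image T len hTne
    rcases Nat.eq_zero_or_pos (len g0) with hz | hpos
    · -- all lengths are zero
      have hall : ∀ g ∈ T, len g = 0 := fun g hg => by
        have := hmax g hg
        omega
      have hinj : Set.InjOn (QuotientGroup.mk' N) (T : Set G) := by
        intro g hg g' hg' heq
        refine hl.base g g' (hall g hg) (hall g' hg') ?_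
        rw [QuotientGroup.mk'_apply, QuotientGroup.mk'_apply] at heq
        exact QuotientGroup.eq.1 heq
      have h0 : Finsupp.mapDomain (QuotientGroup.mk' N) a.coeff
          = Finsupp.mapDomain (QuotientGroup.mk' N) (0 : G →₀ K) := by
        have := congrArg coeff hπ
        simpa using this
      have ha0 : a.coeff = 0 :=
        Finsupp.mapDomain_injOn (T : Set G) hinj (by exact_mod_cast ha) (by simp) h0
      have ha0' : a = 0 := coeff_eq_zero.1 ha0
      exact ⟨0, by simp [ha0'], by simp⟩
    · obtain ⟨y, hy⟩ := hl.desc g0 hpos
      obtain ⟨p, hp⟩ : ∃ p, p = act t y g0 := ⟨_, rfl⟩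
      rw [← hp] at hy
      have hpT : p ∈ T := by rw [hp]; exact hT g0 hg0T y (by rw [← hp]; exact hy)
      have hpne : p ≠ g0 := by
        rintro rfl
        exact lt_irrefl _ hy
      obtain ⟨α, hα⟩ : ∃ α, α = a.coeff g0 := ⟨_, rfl⟩
      have hT' : DownClosed t len (T.erase g0) := by
        intro g hg y' hy'
        have hgT := Finset.mem_of_mem_erase hg
        refine Finset.mem_erase.2 ⟨?_, hT g hgT y' hy'⟩
        intro heq
        rw [heq] at hy'
        have := hmax g hgT
        omega
      have hcard' : (T.erase g0).card = n := by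
        rw [Finset.card_erase_of_mem hg0T, hcard]; rfl
      have hsupp : (a - single g0 α + single p α).coeff.support ⊆ T.erase g0 := by
        intro h hh
        rw [Finsupp.mem_support_iff] at hh
        have hc : (a - single g0 α + single p α).coeff h
            = a.coeff h - (if g0 = h then α else 0) + (if p = h then α else 0) := by
          rw [coeff_add, Finsupp.add_apply, coeff_sub, Finsupp.sub_apply, coeff_single, Finsupp.single_apply,
            coeff_single, Finsupp.single_apply]
        rw [hc] at hh
        refine Finset.mem_erase.2 ⟨?_, ?_⟩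
        · rintro rfl
          apply hh
          rw [if_pos rfl, if_neg hpne, ← hα]
          simp
        · by_contra hhT
          apply hh
          have h1 : g0 ≠ h := by rintro rfl; exact hhT hg0T
          have h2 : p ≠ h := by rintro rfl; exact hhT hpT
          have h3 : a.coeff h = 0 := by
            by_contra h3
            exact hhT (ha (Finsupp.mem_support_iff.2 h3))
          rw [if_neg h1, if_neg h2, h3]
          simp
      have hπ' : mapDomainRingHom K (QuotientGroup.mk' N) (a - single g0 α + single p α) = 0 := by
        rw [map_add, map_sub, hπ]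
        simp only [mapDomainRingHom_apply, mapDomain_single]
        rw [hp, mk_act hl]
        simp
      obtain ⟨c', hc', hs'⟩ := ih (T.erase g0) hcard' hT' _ hsupp hπ'
      obtain ⟨q, β, hq1, hq2, hq3⟩ := edge_term (K := K) t y g0 α
      rw [← hp] at hq1 hq2 hq3
      have hqT : q ∈ T := by rcases hq1 with h | h <;> rw [h] <;> assumption
      have htqT : t y.1 * q ∈ T := by rcases hq2 with h | h <;> rw [h] <;> assumption
      refine ⟨c' + Finsupp.single y.1 (single q β), ?_, ?_⟩
      · rw [Finsupp.sum_add_index' (fun _ => mul_zero _) (fun _ _ _ => mul_add _ _ _),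
          Finsupp.sum_single_index (mul_zero _), ← hc', hq3]
        abel
      · intro x h hh
        rw [Finsupp.mem_support_iff, Finsupp.add_apply, coeff_add, Finsupp.add_apply] at hh
        by_cases h1 : (c' x).coeff h = 0
        · rw [h1, zero_add] at hh
          by_cases hx : y.1 = x
          · subst hx
            rw [Finsupp.single_eq_same, coeff_single, Finsupp.single_apply] at hh
            by_cases hqh : q = h
            · subst hqh
              exact ⟨hqT, htqT⟩
            · rw [if_neg hqh] at hh
              exact absurd rfl hh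
          · rw [Finsupp.single_eq_of_ne (Ne.symm hx)] at hh
            exact absurd rfl hh
        · have := hs' x h (Finsupp.mem_support_iff.2 h1)
          exact ⟨Finset.mem_of_mem_erase this.1, Finset.mem_of_mem_erase this.2⟩

/-- An element of the kernel of `K[G] → K[G/N]` supported in a down closed set `T` is a
combination `∑ (t x - 1) * c x` with `c x` supported on the tails of the `x`-edges inside `T`. -/
theorem decomp {K G X : Type*} [Ring K] [Group G] {N : Subgroup G} [N.Normal] {t : X → G}
    {len : G → ℕ} (hl : IsLen N t len) (T : Finset G) (hT : DownClosed t len T)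
    (a : MonoidAlgebra K G) (ha : a.coeff.support ⊆ T)
    (hπ : mapDomainRingHom K (QuotientGroup.mk' N) a = 0) :
    ∃ c : X →₀ MonoidAlgebra K G,
      a = c.sum (fun x cx => (single (t x) (1 : K) - 1) * cx) ∧
      ∀ x, ∀ h ∈ (c x).coeff.support, h ∈ T ∧ t x * h ∈ T :=
  decomp_aux hl T.card T rfl hT a ha hπ

lemma exists_downClosed_one {G X : Type*} [Group G] {N : Subgroup G} {t : X → G}
    {len : G → ℕ} (hl : IsLen N t len) : ∀ (n : ℕ) (g : G), len g = n →
    ∃ T : Finset G, g ∈ T ∧ DownClosed t len T := by
  classical
  intro n
  induction n using Nat.strong_induction_on with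
  | _ n ih =>
    intro g hg
    by_cases hex : ∃ y : X × Bool, len (act t y g) < len g
    · obtain ⟨y, hy⟩ := hex
      obtain ⟨T, hT1, hT2⟩ := ih (len (act t y g)) (by omega) (act t y g) rfl
      refine ⟨insert g T, Finset.mem_insert_self _ _, ?_⟩
      intro h hh y' hy'
      rcases Finset.mem_insert.1 hh with rfl | hh
      · have := hl.uniq h y y' hy hy'
        rw [← this]
        exact Finset.mem_insert_of_mem hT1
      · exact Finset.mem_insert_of_mem (hT2 h hh y' hy')
    · refine ⟨{g}, Finset.mem_singleton_self _, ?_⟩
      intro h hh y' hy'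
      rw [Finset.mem_singleton] at hh
      subst hh
      exact absurd ⟨y', hy'⟩ hex

/-- Every finite set is contained in a finite down closed set. -/
theorem exists_downClosed {G X : Type*} [Group G] {N : Subgroup G} {t : X → G}
    {len : G → ℕ} (hl : IsLen N t len) (S : Finset G) :
    ∃ T : Finset G, S ⊆ T ∧ DownClosed t len T := by
  classical
  induction S using Finset.induction_on with
  | empty => exact ⟨∅, Finset.Subset.refl _, fun g hg => absurd hg (Finset.notMem_empty g)⟩
  | insert g S _ ih =>
    obtain ⟨T, hST, hT⟩ := ih
    obtain ⟨T1, hg1, hT1⟩ := exists_downClosed_one hl (len g) g rfl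
    refine ⟨T1 ∪ T, ?_, ?_⟩
    · intro h hh
      rcases Finset.mem_insert.1 hh with rfl | hh
      · exact Finset.mem_union_left _ hg1
      · exact Finset.mem_union_right _ (hST hh)
    · intro h hh y hy
      rcases Finset.mem_union.1 hh with hh | hh
      · exact Finset.mem_union_left _ (hT1 h hh y hy)
      · exact Finset.mem_union_right _ (hT h hh y hy)

end Vale.Agent.Lib.P201
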