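import Vale.Agent.Lib.P201.FKFree
import Vale.Agent.Lib.P201.FKDecomp

namespace Vale.Agent.Lib.P201

open MonoidAlgebra

theorem exists_ann_aux {K G X : Type*} [Ring K] [Group G] {N : Subgroup G} [N.Normal] {t : X → G}
    {len : G → ℕ} (hl : IsLen N t len) (n : ℕ) :
    ∀ (T : Finset G), T.card = n → DownClosed t len T → ∀ a : MonoidAlgebra K G, a ≠ 0 →
      a.coeff.support ⊆ T →
      ∃ c : MonoidAlgebra K G, mapDomainRingHom K (QuotientGroup.mk' N) c ≠ 0 ∧
        ∀ b : MonoidAlgebra K G, a * b = 0 → c * b = 0 := by
  classical
  induction n using Nat.strong_induction_on with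
  | _ n ih =>
    intro T hcard hT a ha hsupp
    by_cases hπ : mapDomainRingHom K (QuotientGroup.mk' N) a = 0
    swap
    · exact ⟨a, hπ, fun b hb => hb⟩
    obtain ⟨c, hac, hc⟩ := decomp hl T hT a hsupp hπ
    -- annihilators
    have hkill : ∀ b : MonoidAlgebra K G, a * b = 0 → ∀ x, c x * b = 0 := by
      intro b hb x
      have hz : (c.mapRange (fun u => u * b) (zero_mul b)) = 0 := by
        apply free_right hl
        rw [Finsupp.sum_mapRange_index (fun x => mul_zero _)]
        have : (c.sum fun x cx => (single (t x) (1 : K) - 1) * (cx * b))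
            = (c.sum fun x cx => (single (t x) (1 : K) - 1) * cx) * b := by
          rw [Finsupp.sum_mul]
          simp only [mul_assoc]
        rw [this, ← hac, hb]
      have := DFunLike.congr_fun hz x
      simpa using this
    -- some coefficient is nonzero
    obtain ⟨x, hx⟩ : ∃ x, c x ≠ 0 := by
      by_contra hcon
      push Not at hcon
      apply ha
      rw [hac, Finsupp.sum]
      exact Finset.sum_eq_zero fun x _ => by rw [hcon x, mul_zero]
    -- a top vertex
    have hTne : T.Nonempty := by
      obtain ⟨g, hg⟩ : ∃ g, a.coeff g ≠ 0 := by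
        by_contra hcon
        push Not at hcon
        apply ha
        rw [← coeff_eq_zero]
        exact Finsupp.ext hcon
      exact ⟨g, hsupp (Finsupp.mem_support_iff.2 hg)⟩
    obtain ⟨g0, hg0, hmax⟩ := Finset.exists_max_image T len hTne
    have hT' : DownClosed t len (T.erase g0) := by
      intro g hg y hy
      have hgT := Finset.mem_of_mem_erase hg
      refine Finset.mem_erase.2 ⟨?_, hT g hgT y hy⟩
      intro h
      rw [h] at hy
      exact absurd (hmax g hgT) (not_le.2 hy)
    have hcard' : (T.erase g0).card < n := by
      rw [← hcard]; exact Finset.card_erase_lt_of_mem hg0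
    by_cases hg0c : g0 ∈ (c x).coeff.support
    · -- use `single (t x) 1 * c x`
      have hdown : len (act t (x, true) g0) < len g0 := by
        have h1 := (hc x g0 hg0c).2
        have h2 := hmax _ h1
        have h3 := hl.step x g0
        have : act t (x, true) g0 = t x * g0 := by simp [act]
        rw [this]
        omega
      have hne : single (t x) (1 : K) * c x ≠ 0 := by
        intro h0
        apply hx
        have : single (t x)⁻¹ (1 : K) * (single (t x) (1 : K) * c x) = c x := by
          rw [← mul_assoc, single_mul_single, inv_mul_cancel, one_mul, ← one_def, one_mul]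
        rw [← this, h0, mul_zero]
      have hs : (single (t x) (1 : K) * c x).coeff.support ⊆ T.erase g0 := by
        intro h' hh'
        rw [Finsupp.mem_support_iff, coeff_single_mul_apply, one_mul] at hh'
        have hmem := hc x _ (Finsupp.mem_support_iff.2 hh')
        rw [mul_inv_cancel_left] at hmem
        refine Finset.mem_erase.2 ⟨?_, hmem.2⟩
        intro h
        subst h
        have h2 := hmax _ hmem.1
        have h3 := hl.step x ((t x)⁻¹ * h')
        rw [mul_inv_cancel_left] at h3
        have hdown' : len (act t (x, false) h') < len h' := by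
          have : act t (x, false) h' = (t x)⁻¹ * h' := by simp [act]
          rw [this]
          omega
        have := hl.uniq _ _ _ hdown hdown'
        simp at this
      obtain ⟨c', hc', hann⟩ := ih _ hcard' (T.erase g0) rfl hT' _ hne hs
      refine ⟨c', hc', fun b hb => hann b ?_⟩
      rw [mul_assoc, hkill b hb x, mul_zero]
    · have hs : (c x).coeff.support ⊆ T.erase g0 := by
        intro h' hh'
        refine Finset.mem_erase.2 ⟨?_, (hc x h' hh').1⟩
        intro h
        exact hg0c (h ▸ hh')
      obtain ⟨c', hc', hann⟩ := ih _ hcard' (T.erase g0) rfl hT' _ hx hs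
      exact ⟨c', hc', fun b hb => hann b (hkill b hb x)⟩

/-- Key step: the right annihilator of a nonzero `a` is contained in the right annihilator of
some `c` with nonzero image in `K[G/N]`. -/
theorem exists_ann {K G X : Type*} [Ring K] [Group G] {N : Subgroup G} [N.Normal] {t : X → G}
    {len : G → ℕ} (hl : IsLen N t len) (a : MonoidAlgebra K G) (ha : a ≠ 0) :
    ∃ c : MonoidAlgebra K G, mapDomainRingHom K (QuotientGroup.mk' N) c ≠ 0 ∧
      ∀ b : MonoidAlgebra K G, a * b = 0 → c * b = 0 := by
  obtain ⟨T, hST, hT⟩ := exists_downClosed hl a.coeff.support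
  exact exists_ann_aux hl T.card T rfl hT a ha hST

end Vale.Agent.Lib.P201
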