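import Mathlib

/-!
P201, free kernels: basic definitions (see notes/P201/blueprint_freekernel.md).
`G` is a group, `N` a normal subgroup, `t : X → G` a family of elements of `N` (a free basis).
We look at the graph on `G` with edges `h — t x * h`; it is a forest whose components are the
cosets of `N`.  `len` is the distance to a chosen base point of the component.
-/

namespace Vale.Agent.Lib.P201

/-- left multiplication by the letter `y = (x, b)`: by `t x` if `b`, by `(t x)⁻¹` otherwise. -/
def act {G X : Type*} [Group G] (t : X → G) (y : X × Bool) (g : G) : G :=
  if y.2 then t y.1 * g else (t y.1)⁻¹ * g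

/-- `len` is a height function turning the graph `h — t x * h` on `G` into a rooted forest with
exactly one root in every coset of `N`. -/
structure IsLen {G X : Type*} [Group G] (N : Subgroup G) (t : X → G) (len : G → ℕ) : Prop where
  mem : ∀ x, t x ∈ N
  step : ∀ x g, len (t x * g) = len g + 1 ∨ len g = len (t x * g) + 1
  uniq : ∀ g (y y' : X × Bool), len (act t y g) < len g → len (act t y' g) < len g → y = y'
  desc : ∀ g, 0 < len g → ∃ y : X × Bool, len (act t y g) < len g
  base : ∀ g g', len g = 0 → len g' = 0 → g⁻¹ * g' ∈ N → g = g'

/-- a set of vertices closed under going down. -/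
def DownClosed {G X : Type*} [Group G] (t : X → G) (len : G → ℕ) (T : Finset G) : Prop :=
  ∀ g ∈ T, ∀ y : X × Bool, len (act t y g) < len g → act t y g ∈ T

end Vale.Agent.Lib.P201
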