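import Mathlib

namespace Vale.Agent.Lib.P201

open MonoidAlgebra

/-- the map induced by `g ↦ g⁻¹`. -/
noncomputable def invMap (K G : Type*) [CommRing K] [Group G] (a : MonoidAlgebra K G) :
    MonoidAlgebra K G := mapDomain (fun g : G => g⁻¹) a

theorem invMap_single {K G : Type*} [CommRing K] [Group G] (g : G) (r : K) :
    invMap K G (single g r) = single g⁻¹ r := by
  simp [invMap]

theorem invMap_add {K G : Type*} [CommRing K] [Group G] (a b : MonoidAlgebra K G) :
    invMap K G (a + b) = invMap K G a + invMap K G b := mapDomain_add _ _ _

theorem invMap_zero {K G : Type*} [CommRing K] [Group G] :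
    invMap K G (0 : MonoidAlgebra K G) = 0 := mapDomain_zero _

theorem invMap_invMap {K G : Type*} [CommRing K] [Group G] (a : MonoidAlgebra K G) :
    invMap K G (invMap K G a) = a := by
  induction a using MonoidAlgebra.induction_linear with
  | zero => simp [invMap_zero]
  | add a b ha hb => rw [invMap_add, invMap_add, ha, hb]
  | single g r => simp [invMap_single]

theorem invMap_mul {K G : Type*} [CommRing K] [Group G] (a b : MonoidAlgebra K G) :
    invMap K G (a * b) = invMap K G b * invMap K G a := by
  induction a using MonoidAlgebra.induction_linear with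
  | zero => simp [invMap_zero]
  | add a a' ha ha' => rw [add_mul, invMap_add, invMap_add, mul_add, ha, ha']
  | single g r =>
    induction b using MonoidAlgebra.induction_linear with
    | zero => simp [invMap_zero]
    | add b b' hb hb' => rw [mul_add, invMap_add, invMap_add, add_mul, hb, hb']
    | single h s =>
      rw [single_mul_single, invMap_single, invMap_single, invMap_single, single_mul_single,
        mul_inv_rev, mul_comm r s]

theorem map_invMap {K G : Type*} [CommRing K] [Group G] (N : Subgroup G) [N.Normal]
    (a : MonoidAlgebra K G) :
    mapDomainRingHom K (QuotientGroup.mk' N) (invMap K G a) =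
      invMap K (G ⧸ N) (mapDomainRingHom K (QuotientGroup.mk' N) a) := by
  induction a using MonoidAlgebra.induction_linear with
  | zero => simp [invMap_zero]
  | add a b ha hb => rw [invMap_add, map_add, map_add, invMap_add, ha, hb]
  | single g r => simp [invMap_single]

/-- The anti-involution `g ↦ g⁻¹` of a group algebra over a commutative ring, compatible with
the projection to `K[G/N]`. -/
theorem exists_antiInv (K G : Type*) [CommRing K] [Group G] (N : Subgroup G) [N.Normal] :
    ∃ ι : MonoidAlgebra K G → MonoidAlgebra K G,
      (∀ a b, ι (a * b) = ι b * ι a) ∧ (∀ a, ι (ι a) = a) ∧ ι 0 = 0 ∧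
      ∀ a, mapDomainRingHom K (QuotientGroup.mk' N) (ι a) = 0 →
        mapDomainRingHom K (QuotientGroup.mk' N) a = 0 := by
  refine ⟨invMap K G, invMap_mul, invMap_invMap, invMap_zero, fun a ha => ?_⟩
  rw [map_invMap] at ha
  rw [← invMap_invMap (mapDomainRingHom K (QuotientGroup.mk' N) a), ha, invMap_zero]

end Vale.Agent.Lib.P201
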