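import Vale.Agent.Lib.P201.FKDefs

namespace Vale.Agent.Lib.P201

section FreeGroupFacts

variable {X : Type*} [DecidableEq X]

theorem toWord_letter_mul (y : X × Bool) (w : FreeGroup X) :
    (FreeGroup.mk [y] * w).toWord =
      List.casesOn (w.toWord) [y] fun hd tl =>
        if y.1 = hd.1 ∧ y.2 = not hd.2 then tl else y :: hd :: tl := by
  rw [FreeGroup.toWord_mul, FreeGroup.toWord_mk, FreeGroup.reduce_singleton, List.singleton_append,
    FreeGroup.reduce.cons, FreeGroup.reduce_toWord]

theorem norm_letter_mul (y : X × Bool) (w : FreeGroup X) :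
    (FreeGroup.mk [y] * w).norm = w.norm + 1 ∨ w.norm = (FreeGroup.mk [y] * w).norm + 1 := by
  unfold FreeGroup.norm
  rw [toWord_letter_mul]
  cases h : w.toWord with
  | nil => left; simp
  | cons hd tl =>
    by_cases hc : y.1 = hd.1 ∧ y.2 = not hd.2
    · right; simp [hc]
    · left; simp [hc]

theorem head_of_norm_lt (y : X × Bool) (w : FreeGroup X)
    (h : (FreeGroup.mk [y] * w).norm < w.norm) : w.toWord.head? = some (y.1, not y.2) := by
  unfold FreeGroup.norm at h
  rw [toWord_letter_mul] at h
  cases hw : w.toWord with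
  | nil => rw [hw] at h; simp at h
  | cons hd tl =>
    rw [hw] at h
    by_cases hc : y.1 = hd.1 ∧ y.2 = not hd.2
    · simp only [List.head?_cons, Option.some.injEq]
      ext
      · exact hc.1.symm
      · simp [hc.2]
    · simp [hc] at h

theorem exists_norm_lt (w : FreeGroup X) (h : 0 < w.norm) :
    ∃ y : X × Bool, (FreeGroup.mk [y] * w).norm < w.norm := by
  unfold FreeGroup.norm at h ⊢
  cases hw : w.toWord with
  | nil => rw [hw] at h; simp at h
  | cons hd tl =>
    refine ⟨(hd.1, not hd.2), ?_⟩
    rw [toWord_letter_mul, hw]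
    simp

end FreeGroupFacts

/-- A free normal subgroup gives a height function. -/
theorem exists_isLen {G X : Type*} [Group G] (N : Subgroup G) [N.Normal]
    (φ : FreeGroup X ≃* N) :
    ∃ len : G → ℕ, IsLen N (fun x => (φ (FreeGroup.of x) : G)) len := by
  classical
  set t : X → G := fun x => (φ (FreeGroup.of x) : G) with ht
  let s : G → G := fun g => (QuotientGroup.mk g : G ⧸ N).out
  have hs : ∀ g, g * (s g)⁻¹ ∈ N := by
    intro g
    have h1 : (QuotientGroup.mk (s g) : G ⧸ N) = QuotientGroup.mk g := QuotientGroup.out_eq' _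
    have h2 : (s g)⁻¹ * g ∈ N := QuotientGroup.eq.mp h1
    exact (Subgroup.Normal.mem_comm_iff inferInstance).mp h2
  let n : G → N := fun g => ⟨g * (s g)⁻¹, hs g⟩
  let e : X × Bool → N := fun y => φ (FreeGroup.mk [y])
  have he : ∀ y g, act t y g = (e y : G) * g := by
    rintro ⟨x, b⟩ g
    cases b
    · have : FreeGroup.mk [(x, false)] = (FreeGroup.of x)⁻¹ := by
        simp [FreeGroup.of, FreeGroup.inv_mk, FreeGroup.invRev]
      simp [act, e, this, ht]
    · simp [act, e, ht, FreeGroup.of]
  have hsN : ∀ (m : N) g, s ((m : G) * g) = s g := by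
    intro m g
    have : (QuotientGroup.mk ((m : G) * g) : G ⧸ N) = QuotientGroup.mk g := by
      rw [QuotientGroup.eq]
      have h1 : ((m : G) * g)⁻¹ * g = g⁻¹ * (m : G)⁻¹ * g := by group
      rw [h1]
      have h2 : g⁻¹ * (m : G)⁻¹ * g⁻¹⁻¹ ∈ N :=
        (inferInstance : N.Normal).conj_mem _ (N.inv_mem m.2) g⁻¹
      simpa using h2
    simp only [s, this]
  have hn : ∀ (m : N) g, n ((m : G) * g) = m * n g := by
    intro m g
    apply Subtype.ext
    simp only [n, hsN, Subgroup.coe_mul, mul_assoc]
  have hlen : ∀ y g, φ.symm (n (act t y g)) = FreeGroup.mk [y] * φ.symm (n g) := by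
    intro y g
    rw [he, hn, map_mul]
    simp [e]
  refine ⟨fun g => (φ.symm (n g)).norm, ?_, ?_, ?_, ?_, ?_⟩
  · intro x
    exact (φ (FreeGroup.of x)).2
  · intro x g
    have h := hlen (x, true) g
    have h2 : act t (x, true) g = t x * g := by simp [act]
    rw [h2] at h
    change (φ.symm (n (t x * g))).norm = _ ∨ _ = (φ.symm (n (t x * g))).norm + 1
    rw [h]
    exact norm_letter_mul _ _
  · intro g y y' h1 h2
    change (φ.symm (n (act t y g))).norm < _ at h1
    change (φ.symm (n (act t y' g))).norm < _ at h2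
    rw [hlen] at h1 h2
    have e1 := head_of_norm_lt _ _ h1
    have e2 := head_of_norm_lt _ _ h2
    rw [e1] at e2
    simp only [Option.some.injEq, Prod.mk.injEq] at e2
    ext
    · exact e2.1
    · have := e2.2
      simpa using this
  · intro g hg
    obtain ⟨y, hy⟩ := exists_norm_lt (φ.symm (n g)) hg
    refine ⟨y, ?_⟩
    rw [hlen]
    exact hy
  · intro g g' h1 h2 h3
    have k1 : n g = 1 := by
      have : φ.symm (n g) = 1 := FreeGroup.norm_eq_zero.mp h1
      simpa using this
    have k2 : n g' = 1 := by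
      have : φ.symm (n g') = 1 := FreeGroup.norm_eq_zero.mp h2
      simpa using this
    have j1 : g * (s g)⁻¹ = 1 := congrArg Subtype.val k1
    have j2 : g' * (s g')⁻¹ = 1 := congrArg Subtype.val k2
    have hss : s g = s g' := by
      have : (QuotientGroup.mk g : G ⧸ N) = QuotientGroup.mk g' := QuotientGroup.eq.mpr h3
      simp only [s, this]
    rw [mul_inv_eq_one] at j1 j2
    rw [j1, j2, hss]

end Vale.Agent.Lib.P201
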