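import Vale.Agent.Lib.P201.MaxPrinciple

/-!
Grading a group algebra by a unique-product quotient, and restriction to a coset.
-/

namespace Vale.Agent.Lib.P201

open Finset

variable {K : Type*} [Field K]

/-- Homogeneous component of an element of a group algebra with respect to a homomorphism. -/
noncomputable def comp {H Q : Type*} [Group H] [Group Q] (φ : H →* Q) (p : Q)
    (α : MonoidAlgebra K H) : MonoidAlgebra K H := by
  classical exact MonoidAlgebra.ofCoeff (α.coeff.filter (fun g => φ g = p))

lemma comp_coeff {H Q : Type*} [Group H] [Group Q] [DecidableEq Q] (φ : H →* Q) (p : Q)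
    (α : MonoidAlgebra K H) (g : H) :
    (comp φ p α).coeff g = if φ g = p then α.coeff g else 0 := by
  classical
  unfold comp
  simp only [Finsupp.filter_apply]
  congr

/-- If a product vanishes, then so does a product of nonzero homogeneous components
with respect to any homomorphism to a unique-product group. -/
theorem exists_comp_mul_comp_eq_zero {H Q : Type*} [Group H] [Group Q] [UniqueProds Q]
    (φ : H →* Q) (α β : MonoidAlgebra K H) (hα : α ≠ 0) (hβ : β ≠ 0) (h : α * β = 0) :
    ∃ p q : Q, comp φ p α ≠ 0 ∧ comp φ q β ≠ 0 ∧ comp φ p α * comp φ q β = 0 := by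
  classical
  have hα' : α.coeff.support.Nonempty := by
    rw [Finsupp.support_nonempty_iff]; simpa using hα
  have hβ' : β.coeff.support.Nonempty := by
    rw [Finsupp.support_nonempty_iff]; simpa using hβ
  obtain ⟨p, hp, q, hq, huniq⟩ := UniqueProds.uniqueMul_of_nonempty
    (hα'.image φ) (hβ'.image φ)
  refine ⟨p, q, ?_, ?_, ?_⟩
  · obtain ⟨g, hg, rfl⟩ := Finset.mem_image.mp hp
    intro h0
    have := congrArg (fun z => MonoidAlgebra.coeff z g) h0
    simp only [comp_coeff, if_true, MonoidAlgebra.coeff_zero, Finsupp.coe_zero,
      Pi.zero_apply] at this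
    exact (Finsupp.mem_support_iff.mp hg) this
  · obtain ⟨g, hg, rfl⟩ := Finset.mem_image.mp hq
    intro h0
    have := congrArg (fun z => MonoidAlgebra.coeff z g) h0
    simp only [comp_coeff, if_true, MonoidAlgebra.coeff_zero, Finsupp.coe_zero,
      Pi.zero_apply] at this
    exact (Finsupp.mem_support_iff.mp hg) this
  · ext k
    have hsub : (comp φ p α).coeff.support ⊆ α.coeff.support := by
      intro g hg
      rw [Finsupp.mem_support_iff, comp_coeff] at hg
      rw [Finsupp.mem_support_iff]
      intro h0
      rw [h0] at hg
      simp at hg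
    rw [MonoidAlgebra.coeff_mul_apply_left,
      Finsupp.sum_of_support_subset _ hsub _ (by intro i _; simp)]
    simp only [comp_coeff, MonoidAlgebra.coeff_zero, Finsupp.coe_zero, Pi.zero_apply]
    by_cases hk : φ k = p * q
    · have h0 := MonoidAlgebra.coeff_mul_apply_left α β k
      rw [h, Finsupp.sum] at h0
      simp only [MonoidAlgebra.coeff_zero, Finsupp.coe_zero, Pi.zero_apply] at h0
      refine Eq.trans ?_ h0.symm
      apply Finset.sum_congr rfl
      intro g hg
      by_cases hb : β.coeff (g⁻¹ * k) = 0
      · simp only [hb, ite_self, mul_zero]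
      · have hmem : g⁻¹ * k ∈ β.coeff.support := Finsupp.mem_support_iff.mpr hb
        have hprod : φ g * φ (g⁻¹ * k) = p * q := by
          rw [← map_mul, mul_inv_cancel_left, hk]
        obtain ⟨h1, h2⟩ := huniq (Finset.mem_image_of_mem φ hg) (Finset.mem_image_of_mem φ hmem)
          hprod
        rw [if_pos h1, if_pos h2]
    · apply Finset.sum_eq_zero
      intro g _
      by_cases h1 : φ g = p
      · by_cases h2 : φ (g⁻¹ * k) = q
        · exfalso
          apply hk
          rw [← h1, ← h2, ← map_mul, mul_inv_cancel_left]
        · rw [if_neg h2, mul_zero]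
      · rw [if_neg h1, zero_mul]

end Vale.Agent.Lib.P201
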