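import Mathlib

/-!
Maximum-principle lemmas for convolution equations, used for zero divisors in group algebras.
-/

namespace Vale.Agent.Lib.P201

open Finset

/-- A finite set which is mapped into itself by an injective map without periodic points
is empty. -/
lemma finset_eq_empty_of_invariant {X : Type*} (σ : X → X) (hinj : Function.Injective σ)
    (hσ : ∀ n : ℕ, 0 < n → ∀ x, σ^[n] x ≠ x)
    (E : Finset X) (hE : ∀ x ∈ E, σ x ∈ E) : E = ∅ := by
  by_contra hne
  obtain ⟨t, ht⟩ := Finset.nonempty_iff_ne_empty.mpr hne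
  have hmem : ∀ n : ℕ, σ^[n] t ∈ E := by
    intro n
    induction n with
    | zero => simpa using ht
    | succ k ih =>
      rw [Function.iterate_succ_apply']
      exact hE _ ih
  let f : ℕ → E := fun n => ⟨σ^[n] t, hmem n⟩
  obtain ⟨n, m, hnm, hf⟩ := Finite.exists_ne_map_eq_of_infinite f
  have hf' : σ^[n] t = σ^[m] t := congrArg Subtype.val hf
  rcases lt_or_gt_of_ne hnm with h | h
  · have : m = n + (m - n) := by omega
    rw [this, Function.iterate_add_apply] at hf'
    have := (hinj.iterate n) hf'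
    exact hσ (m - n) (by omega) t this.symm
  · have : n = m + (n - m) := by omega
    rw [this, Function.iterate_add_apply] at hf'
    have := (hinj.iterate m) hf'
    exact hσ (n - m) (by omega) t this

variable {K : Type*} [Field K]

open Classical in
/-- Ultrametric maximum principle: in a nontrivial convolution-type relation the maximal
valuation among the coefficients is attained at least three times. -/
theorem three_le_card_of_valuation {Γ₀ : Type*} [LinearOrderedCommGroupWithZero Γ₀]
    (v : Valuation K Γ₀) {I X : Type*} (τ : I → Equiv.Perm X)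
    (hτ : ∀ i j, i ≠ j → ∀ n : ℕ, 0 < n → ∀ x, (fun y => τ j ((τ i).symm y))^[n] x ≠ x)
    (α : I →₀ K) (b : X →₀ K) (hα : α ≠ 0) (hb : b ≠ 0)
    (hsum : ∀ x, α.sum (fun i r => r * b (τ i x)) = 0) :
    3 ≤ (α.support.filter (fun i => ∀ j, v (α j) ≤ v (α i))).card := by
  classical
  set S := α.support.filter (fun i => ∀ j, v (α j) ≤ v (α i)) with hS
  set E := b.support.filter (fun t => ∀ s, v (b s) ≤ v (b t)) with hE
  -- nonemptiness
  have hαs : α.support.Nonempty := Finsupp.support_nonempty_iff.mpr hα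
  have hbs : b.support.Nonempty := Finsupp.support_nonempty_iff.mpr hb
  obtain ⟨i₁, hi₁s, hi₁⟩ := Finset.exists_max_image α.support (fun i => v (α i)) hαs
  obtain ⟨t₀, ht₀s, ht₀⟩ := Finset.exists_max_image b.support (fun t => v (b t)) hbs
  have hi₁S : i₁ ∈ S := by
    rw [hS, Finset.mem_filter]
    refine ⟨hi₁s, fun j => ?_⟩
    by_cases hj : j ∈ α.support
    · exact hi₁ j hj
    · rw [Finsupp.notMem_support_iff.mp hj, map_zero]; exact zero_le
  have ht₀E : t₀ ∈ E := by
    rw [hE, Finset.mem_filter]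
    refine ⟨ht₀s, fun s => ?_⟩
    by_cases hs : s ∈ b.support
    · exact ht₀ s hs
    · rw [Finsupp.notMem_support_iff.mp hs, map_zero]; exact zero_le
  -- key claim
  have key : ∀ t ∈ E, ∃ i ∈ S, i ≠ i₁ ∧ τ i ((τ i₁).symm t) ∈ E := by
    intro t ht
    by_contra hcon
    push Not at hcon
    set x := (τ i₁).symm t with hx
    have htx : τ i₁ x = t := by simp [hx]
    have hsx := hsum x
    rw [Finsupp.sum] at hsx
    have hα1 : v (α i₁) ≠ 0 := by
      rw [Valuation.ne_zero_iff]; exact Finsupp.mem_support_iff.mp hi₁s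
    have htE := (Finset.mem_filter.mp ht)
    have hbt : v (b t) ≠ 0 := by
      rw [Valuation.ne_zero_iff]; exact Finsupp.mem_support_iff.mp htE.1
    have hval : v (∑ i ∈ α.support, α i * b (τ i x)) = v (α i₁ * b (τ i₁ x)) := by
      apply Valuation.map_sum_eq_of_lt v hi₁s
      intro i hi
      rw [Finset.mem_sdiff, Finset.mem_singleton] at hi
      rw [map_mul, map_mul, htx]
      by_cases hiS : i ∈ S
      · have hnE := hcon i hiS hi.2
        have h1 : v (α i) ≤ v (α i₁) := (Finset.mem_filter.mp hi₁S).2 i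
        have h2 : v (b (τ i x)) < v (b t) := by
          by_contra hnot
          push Not at hnot
          apply hnE
          rw [hE, Finset.mem_filter]
          refine ⟨?_, fun s => (htE.2 s).trans hnot⟩
          rw [Finsupp.mem_support_iff, ← Valuation.ne_zero_iff v]
          intro h0
          rw [h0] at hnot
          exact hbt (le_antisymm hnot zero_le)
        calc v (α i) * v (b (τ i x)) ≤ v (α i₁) * v (b (τ i x)) := by gcongr
          _ < v (α i₁) * v (b t) := by
            exact mul_lt_mul_of_pos_left h2 (zero_lt_iff.mpr hα1)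
      · have h1 : v (α i) < v (α i₁) := by
          by_contra hnot
          push Not at hnot
          apply hiS
          rw [hS, Finset.mem_filter]
          exact ⟨hi.1, fun j => ((Finset.mem_filter.mp hi₁S).2 j).trans hnot⟩
        have h2 : v (b (τ i x)) ≤ v (b t) := htE.2 _
        calc v (α i) * v (b (τ i x)) ≤ v (α i) * v (b t) := by gcongr
          _ < v (α i₁) * v (b t) := by
            exact mul_lt_mul_of_pos_right h1 (zero_lt_iff.mpr hbt)
    rw [hsx, map_zero, map_mul, htx] at hval
    exact (mul_ne_zero hα1 hbt) hval.symm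
  by_contra hcard
  push Not at hcard
  have hcard' : (S.erase i₁).card ≤ 1 := by
    rw [Finset.card_erase_of_mem hi₁S]; omega
  obtain ⟨i₂, hi₂S, hi₂ne, -⟩ := key t₀ ht₀E
  have hinv : ∀ t ∈ E, (fun y => τ i₂ ((τ i₁).symm y)) t ∈ E := by
    intro t ht
    obtain ⟨i, hiS, hine, hiE⟩ := key t ht
    have : i = i₂ := Finset.card_le_one.mp hcard' i (Finset.mem_erase.mpr ⟨hine, hiS⟩) i₂
      (Finset.mem_erase.mpr ⟨hi₂ne, hi₂S⟩)
    rw [this] at hiE
    exact hiE
  have hempty := finset_eq_empty_of_invariant (fun y => τ i₂ ((τ i₁).symm y))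
    ((τ i₂).injective.comp (τ i₁).symm.injective) (hτ i₁ i₂ hi₂ne.symm) E hinv
  rw [hempty] at ht₀E
  exact absurd ht₀E (Finset.notMem_empty _)

/-- Archimedean (or arbitrary real absolute value) maximum principle: in a nontrivial
convolution-type relation no coefficient dominates the sum of the others. -/
theorem lt_sum_of_absoluteValue (w : AbsoluteValue K ℝ) {I X : Type*} [DecidableEq I]
    (τ : I → Equiv.Perm X)
    (hτ : ∀ i j, i ≠ j → ∀ n : ℕ, 0 < n → ∀ x, (fun y => τ j ((τ i).symm y))^[n] x ≠ x)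
    (α : I →₀ K) (b : X →₀ K) (hα : α ≠ 0) (hb : b ≠ 0)
    (hsum : ∀ x, α.sum (fun i r => r * b (τ i x)) = 0) (i₀ : I) :
    w (α i₀) < ∑ i ∈ α.support.erase i₀, w (α i) := by
  classical
  by_contra hdom
  push Not at hdom
  -- `α i₀ ≠ 0`
  have hα0 : α i₀ ≠ 0 := by
    intro h0
    rw [h0, map_zero] at hdom
    apply hα
    ext i
    by_cases hi : i = i₀
    · rw [hi, h0]; rfl
    · by_contra hne
      have hmem : i ∈ α.support.erase i₀ :=
        Finset.mem_erase.mpr ⟨hi, Finsupp.mem_support_iff.mpr hne⟩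
      have hpos : 0 < w (α i) := w.pos hne
      have : w (α i) ≤ ∑ i ∈ α.support.erase i₀, w (α i) :=
        Finset.single_le_sum (f := fun i => w (α i)) (fun j _ => w.nonneg _) hmem
      linarith
  have hi₀s : i₀ ∈ α.support := Finsupp.mem_support_iff.mpr hα0
  set E := b.support.filter (fun t => ∀ s, w (b s) ≤ w (b t)) with hE
  have hbs : b.support.Nonempty := Finsupp.support_nonempty_iff.mpr hb
  obtain ⟨t₀, ht₀s, ht₀⟩ := Finset.exists_max_image b.support (fun t => w (b t)) hbs
  have ht₀E : t₀ ∈ E := by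
    rw [hE, Finset.mem_filter]
    refine ⟨ht₀s, fun s => ?_⟩
    by_cases hs : s ∈ b.support
    · exact ht₀ s hs
    · rw [Finsupp.notMem_support_iff.mp hs, map_zero]; exact w.nonneg _
  have key : ∀ t ∈ E, ∀ i ∈ α.support.erase i₀, τ i ((τ i₀).symm t) ∈ E := by
    intro t ht i₁ hi₁
    by_contra hnE
    set x := (τ i₀).symm t with hx
    have htx : τ i₀ x = t := by simp [hx]
    have htE := (Finset.mem_filter.mp ht)
    have hbt : 0 < w (b t) := w.pos (Finsupp.mem_support_iff.mp htE.1)
    have hsx := hsum x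
    rw [Finsupp.sum, ← Finset.add_sum_erase _ _ hi₀s, htx] at hsx
    have heq : α i₀ * b t = - ∑ i ∈ α.support.erase i₀, α i * b (τ i x) := by
      linear_combination hsx
    have h1 : w (α i₀) * w (b t) ≤ ∑ i ∈ α.support.erase i₀, w (α i) * w (b (τ i x)) := by
      rw [← map_mul, heq, AbsoluteValue.map_neg]
      refine (w.sum_le _ _).trans (le_of_eq ?_)
      exact Finset.sum_congr rfl fun i _ => map_mul w _ _
    have h2 : ∑ i ∈ α.support.erase i₀, w (α i) * w (b (τ i x))
        < ∑ i ∈ α.support.erase i₀, w (α i) * w (b t) := by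
      apply Finset.sum_lt_sum
      · intro i _
        exact mul_le_mul_of_nonneg_left (htE.2 _) (w.nonneg _)
      · refine ⟨i₁, hi₁, ?_⟩
        have hαi : 0 < w (α i₁) :=
          w.pos (Finsupp.mem_support_iff.mp (Finset.mem_of_mem_erase hi₁))
        have hlt : w (b (τ i₁ x)) < w (b t) := by
          by_contra hnot
          push Not at hnot
          apply hnE
          rw [hE, Finset.mem_filter]
          refine ⟨?_, fun s => (htE.2 s).trans hnot⟩
          rw [Finsupp.mem_support_iff]
          intro h0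
          rw [h0, map_zero] at hnot
          linarith
        exact mul_lt_mul_of_pos_left hlt hαi
    rw [← Finset.sum_mul] at h2
    have h3 : (∑ i ∈ α.support.erase i₀, w (α i)) * w (b t) ≤ w (α i₀) * w (b t) :=
      mul_le_mul_of_nonneg_right hdom hbt.le
    linarith
  rcases (α.support.erase i₀).eq_empty_or_nonempty with hemp | ⟨i₁, hi₁⟩
  · -- monomial case
    have hsx := hsum ((τ i₀).symm t₀)
    rw [Finsupp.sum, ← Finset.add_sum_erase _ _ hi₀s, hemp] at hsx
    simp only [Equiv.apply_symm_apply, Finset.sum_empty, add_zero, mul_eq_zero] at hsx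
    rcases hsx with h | h
    · exact hα0 h
    · exact (Finsupp.mem_support_iff.mp ht₀s) h
  · have hempty := finset_eq_empty_of_invariant (fun y => τ i₁ ((τ i₀).symm y))
      ((τ i₁).injective.comp (τ i₀).symm.injective)
      (hτ i₀ i₁ (Finset.ne_of_mem_erase hi₁).symm) E (fun t ht => key t ht i₁ hi₁)
    rw [hempty] at ht₀E
    exact absurd ht₀E (Finset.notMem_empty _)

section GroupAlgebra

variable {G : Type*} [Group G]

lemma left_no_periodic (hG : ∀ g : G, ∀ n : ℕ, 0 < n → g ^ n = 1 → g = 1) (i j : G)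
    (hij : i ≠ j) (n : ℕ) (hn : 0 < n) (x : G) :
    (fun y => (Equiv.mulLeft j⁻¹) ((Equiv.mulLeft i⁻¹).symm y))^[n] x ≠ x := by
  have hfun : (fun y => (Equiv.mulLeft j⁻¹) ((Equiv.mulLeft i⁻¹).symm y))
      = (fun y => (j⁻¹ * i) * y) := by
    funext y; simp [mul_assoc]
  rw [hfun, mul_left_iterate]
  intro h
  have h1 : (j⁻¹ * i) ^ n = 1 := by simpa using h
  have h2 := hG _ n hn h1
  exact hij (by rw [inv_mul_eq_one] at h2; exact h2.symm)

lemma right_no_periodic (hG : ∀ g : G, ∀ n : ℕ, 0 < n → g ^ n = 1 → g = 1) (i j : G)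
    (hij : i ≠ j) (n : ℕ) (hn : 0 < n) (x : G) :
    (fun y => (Equiv.mulRight j⁻¹) ((Equiv.mulRight i⁻¹).symm y))^[n] x ≠ x := by
  have hfun : (fun y => (Equiv.mulRight j⁻¹) ((Equiv.mulRight i⁻¹).symm y))
      = (fun y => y * (i * j⁻¹)) := by
    funext y; simp [mul_assoc]
  rw [hfun, mul_right_iterate]
  intro h
  have h1 : (i * j⁻¹) ^ n = 1 := by simpa using h
  have h2 := hG _ n hn h1
  exact hij (by rw [mul_inv_eq_one] at h2; exact h2)

lemma left_sum (α β : MonoidAlgebra K G) (h : α * β = 0) (x : G) :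
    α.coeff.sum (fun i r => r * β.coeff ((Equiv.mulLeft i⁻¹) x)) = 0 := by
  have := MonoidAlgebra.coeff_mul_apply_left α β x
  rw [h] at this
  simpa using this.symm

lemma right_sum (α β : MonoidAlgebra K G) (h : β * α = 0) (x : G) :
    α.coeff.sum (fun i r => r * β.coeff ((Equiv.mulRight i⁻¹) x)) = 0 := by
  have := MonoidAlgebra.coeff_mul_apply_right β α x
  rw [h] at this
  simpa [mul_comm] using this.symm

open Classical in
/-- Valuative balance of (left or right) zero divisors. -/
theorem card_valuation (hG : ∀ g : G, ∀ n : ℕ, 0 < n → g ^ n = 1 → g = 1)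
    {Γ₀ : Type*} [LinearOrderedCommGroupWithZero Γ₀] (v : Valuation K Γ₀)
    (α β : MonoidAlgebra K G) (hα : α ≠ 0) (hβ : β ≠ 0) (h : α * β = 0 ∨ β * α = 0) :
    3 ≤ (α.coeff.support.filter (fun i => ∀ j, v (α.coeff j) ≤ v (α.coeff i))).card := by
  have hα' : α.coeff ≠ 0 := by simpa using hα
  have hβ' : β.coeff ≠ 0 := by simpa using hβ
  rcases h with h | h
  · exact three_le_card_of_valuation v (fun i : G => Equiv.mulLeft i⁻¹) (left_no_periodic hG)
      α.coeff β.coeff hα' hβ' (left_sum α β h)
  · exact three_le_card_of_valuation v (fun i : G => Equiv.mulRight i⁻¹) (right_no_periodic hG)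
      α.coeff β.coeff hα' hβ' (right_sum α β h)

/-- Absolute-value balance of (left or right) zero divisors. -/
theorem lt_sum_absoluteValue [DecidableEq G]
    (hG : ∀ g : G, ∀ n : ℕ, 0 < n → g ^ n = 1 → g = 1)
    (w : AbsoluteValue K ℝ)
    (α β : MonoidAlgebra K G) (hα : α ≠ 0) (hβ : β ≠ 0) (h : α * β = 0 ∨ β * α = 0) (g : G) :
    w (α.coeff g) < ∑ i ∈ α.coeff.support.erase g, w (α.coeff i) := by
  have hα' : α.coeff ≠ 0 := by simpa using hα
  have hβ' : β.coeff ≠ 0 := by simpa using hβ
  rcases h with h | h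
  · exact lt_sum_of_absoluteValue w (fun i : G => Equiv.mulLeft i⁻¹) (left_no_periodic hG)
      α.coeff β.coeff hα' hβ' (left_sum α β h) g
  · exact lt_sum_of_absoluteValue w (fun i : G => Equiv.mulRight i⁻¹) (right_no_periodic hG)
      α.coeff β.coeff hα' hβ' (right_sum α β h) g

/-- Elements with at most two terms are not zero divisors. -/
theorem three_le_card_support (hG : ∀ g : G, ∀ n : ℕ, 0 < n → g ^ n = 1 → g = 1)
    (α β : MonoidAlgebra K G) (hα : α ≠ 0) (hβ : β ≠ 0) (h : α * β = 0 ∨ β * α = 0) :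
    3 ≤ α.coeff.support.card := by
  classical
  refine (card_valuation hG (1 : Valuation K (WithZero (Multiplicative ℤ))) α β hα hβ h).trans ?_
  exact Finset.card_le_card (Finset.filter_subset _ _)

end GroupAlgebra

end Vale.Agent.Lib.P201
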