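import Vale.Agent.Lib.P201.Graded

/-!
Three-term zero divisors in group algebras of torsion-free groups.
-/

namespace Vale.Agent.Lib.P201

open Finset MonoidAlgebra

variable {K : Type*} [Field K] {G : Type*} [Group G]

/-- Normalised left version of the triviality of homomorphisms to unique-product groups. -/
theorem hom_trivial_left {Q : Type*} [Group Q] [UniqueProds Q]
    (hG : ∀ g : G, ∀ n : ℕ, 0 < n → g ^ n = 1 → g = 1)
    (x y : G) (a b c : K) (ha : a ≠ 0) (hx1 : x ≠ 1) (hy1 : y ≠ 1)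
    (β : MonoidAlgebra K G) (hβ : β ≠ 0)
    (h : (single 1 a + single x b + single y c) * β = 0)
    (H : Subgroup G) (hx : x ∈ H) (hy : y ∈ H) (φ : H →* Q) :
    φ ⟨x, hx⟩ = 1 ∧ φ ⟨y, hy⟩ = 1 := by
  classical
  have hβ' : β.coeff ≠ 0 := by simpa using hβ
  obtain ⟨t₀, ht₀⟩ := Finsupp.ne_iff.mp hβ'
  have hinj : Set.InjOn (fun k : H => (k : G) * t₀)
      ((fun k : H => (k : G) * t₀) ⁻¹' ↑β.coeff.support) := by
    intro k₁ _ k₂ _ hk
    exact Subtype.ext (mul_right_cancel hk)
  set β₀ : MonoidAlgebra K H := MonoidAlgebra.ofCoeff (β.coeff.comapDomain _ hinj) with hβ₀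
  have hβ₀c : ∀ k : H, β₀.coeff k = β.coeff ((k : G) * t₀) := by
    intro k
    rw [hβ₀]
    simp [Finsupp.comapDomain_apply]
  set x' : H := ⟨x, hx⟩ with hx'
  set y' : H := ⟨y, hy⟩ with hy'
  set α₀ : MonoidAlgebra K H := single 1 a + single x' b + single y' c with hα₀
  have hβ₀ne : β₀ ≠ 0 := by
    intro h0
    have := hβ₀c 1
    rw [h0] at this
    simp only [MonoidAlgebra.coeff_zero, Finsupp.coe_zero, Pi.zero_apply, OneMemClass.coe_one,
      one_mul] at this
    exact ht₀ (by simpa using this.symm)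
  have hx'1 : x' ≠ 1 := fun h0 => hx1 (congrArg Subtype.val h0)
  have hy'1 : y' ≠ 1 := fun h0 => hy1 (congrArg Subtype.val h0)
  have hα₀ne : α₀ ≠ 0 := by
    intro h0
    have := congrArg (fun z => MonoidAlgebra.coeff z 1) h0
    simp only [hα₀, MonoidAlgebra.coeff_add, MonoidAlgebra.coeff_single, Finsupp.coe_add,
      Pi.add_apply, Finsupp.single_eq_same, MonoidAlgebra.coeff_zero, Finsupp.coe_zero,
      Pi.zero_apply] at this
    rw [Finsupp.single_eq_of_ne (Ne.symm hx'1), Finsupp.single_eq_of_ne (Ne.symm hy'1)] at this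
    exact ha (by simpa using this)
  have hprod : α₀ * β₀ = 0 := by
    ext k
    have hk := congrArg (fun z => MonoidAlgebra.coeff z ((k : G) * t₀)) h
    simp only [add_mul, MonoidAlgebra.coeff_add, Finsupp.coe_add, Pi.add_apply,
      MonoidAlgebra.coeff_single_mul_apply, MonoidAlgebra.coeff_zero, Finsupp.coe_zero,
      Pi.zero_apply] at hk
    simp only [hα₀, add_mul, MonoidAlgebra.coeff_add, Finsupp.coe_add, Pi.add_apply,
      MonoidAlgebra.coeff_single_mul_apply, MonoidAlgebra.coeff_zero, Finsupp.coe_zero,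
      Pi.zero_apply, hβ₀c]
    rw [← hk]
    simp [hx', hy', mul_assoc]
  obtain ⟨p, q, hp, hq, hpq⟩ := exists_comp_mul_comp_eq_zero φ α₀ β₀ hα₀ne hβ₀ne hprod
  have hH : ∀ g : H, ∀ n : ℕ, 0 < n → g ^ n = 1 → g = 1 := by
    intro g n hn hg
    apply Subtype.ext
    apply hG _ n hn
    have := congrArg Subtype.val hg
    simpa using this
  have hcard := three_le_card_support hH _ _ hp hq (Or.inl hpq)
  have hsub : (comp φ p α₀).coeff.support ⊆ ({1, x', y'} : Finset H) := by
    intro g hg
    rw [Finsupp.mem_support_iff, comp_coeff] at hg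
    by_contra hmem
    simp only [Finset.mem_insert, Finset.mem_singleton, not_or] at hmem
    apply hg
    have : α₀.coeff g = 0 := by
      simp only [hα₀, MonoidAlgebra.coeff_add, MonoidAlgebra.coeff_single, Finsupp.coe_add,
        Pi.add_apply]
      rw [Finsupp.single_eq_of_ne hmem.1, Finsupp.single_eq_of_ne hmem.2.1,
        Finsupp.single_eq_of_ne hmem.2.2]
      simp
    rw [this]; simp
  have hcard3 : ({1, x', y'} : Finset H).card ≤ 3 := Finset.card_le_three
  have heq := Finset.eq_of_subset_of_card_le hsub (hcard3.trans hcard)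
  have hmem : ∀ g ∈ ({1, x', y'} : Finset H), φ g = p := by
    intro g hg
    rw [← heq, Finsupp.mem_support_iff, comp_coeff] at hg
    by_contra hne
    rw [if_neg hne] at hg
    exact hg rfl
  have h1 := hmem 1 (by simp)
  have h2 := hmem x' (by simp)
  have h3 := hmem y' (by simp)
  rw [map_one] at h1
  exact ⟨h2.trans h1.symm, h3.trans h1.symm⟩

/-- Normalised right version. -/
theorem hom_trivial_right {Q : Type*} [Group Q] [UniqueProds Q]
    (hG : ∀ g : G, ∀ n : ℕ, 0 < n → g ^ n = 1 → g = 1)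
    (x y : G) (a b c : K) (ha : a ≠ 0) (hx1 : x ≠ 1) (hy1 : y ≠ 1)
    (β : MonoidAlgebra K G) (hβ : β ≠ 0)
    (h : β * (single 1 a + single x b + single y c) = 0)
    (H : Subgroup G) (hx : x ∈ H) (hy : y ∈ H) (φ : H →* Q) :
    φ ⟨x, hx⟩ = 1 ∧ φ ⟨y, hy⟩ = 1 := by
  classical
  set β' : MonoidAlgebra K G :=
    MonoidAlgebra.ofCoeff (β.coeff.equivMapDomain (Equiv.inv G)) with hβ'
  have hc : ∀ g : G, β'.coeff g = β.coeff g⁻¹ := by
    intro g
    rw [hβ']
    simp [Finsupp.equivMapDomain_apply]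
  have hβ'ne : β' ≠ 0 := by
    intro h0
    apply hβ
    ext g
    have := hc g⁻¹
    rw [h0] at this
    simpa using this.symm
  have hprod : (single 1 a + single x⁻¹ b + single y⁻¹ c) * β' = 0 := by
    ext k
    have hk := congrArg (fun z => MonoidAlgebra.coeff z k⁻¹) h
    simp only [mul_add, MonoidAlgebra.coeff_add, Finsupp.coe_add, Pi.add_apply,
      MonoidAlgebra.coeff_mul_single_apply, MonoidAlgebra.coeff_zero, Finsupp.coe_zero,
      Pi.zero_apply] at hk
    simp only [add_mul, MonoidAlgebra.coeff_add, Finsupp.coe_add, Pi.add_apply,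
      MonoidAlgebra.coeff_single_mul_apply, MonoidAlgebra.coeff_zero, Finsupp.coe_zero,
      Pi.zero_apply, hc]
    rw [← hk]
    simp [mul_comm]
  have := hom_trivial_left hG x⁻¹ y⁻¹ a b c ha (by simpa using hx1) (by simpa using hy1) β' hβ'ne
    hprod H (H.inv_mem hx) (H.inv_mem hy) φ
  constructor
  · have h1 : (⟨x⁻¹, H.inv_mem hx⟩ : H) = (⟨x, hx⟩ : H)⁻¹ := rfl
    rw [h1, map_inv, inv_eq_one] at this
    exact this.1
  · have h1 : (⟨y⁻¹, H.inv_mem hy⟩ : H) = (⟨y, hy⟩ : H)⁻¹ := rfl
    rw [h1, map_inv, inv_eq_one] at this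
    exact this.2

lemma trinomial_factor (g₁ g₂ g₃ : G) (a b c : K) :
    (single g₁ a + single g₂ b + single g₃ c : MonoidAlgebra K G)
      = single g₁ 1 * (single 1 a + single (g₁⁻¹ * g₂) b + single (g₁⁻¹ * g₃) c) := by
  simp [mul_add]

/-- General version: a three-term zero divisor generates (after normalisation) a subgroup all of
whose homomorphisms to unique-product groups are trivial on the generators. -/
theorem hom_trivial {Q : Type*} [Group Q] [UniqueProds Q]
    (hG : ∀ g : G, ∀ n : ℕ, 0 < n → g ^ n = 1 → g = 1)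
    (g₁ g₂ g₃ : G) (h12 : g₁ ≠ g₂) (h13 : g₁ ≠ g₃) (a b c : K) (ha : a ≠ 0)
    (β : MonoidAlgebra K G) (hβ : β ≠ 0)
    (h : (single g₁ a + single g₂ b + single g₃ c) * β = 0 ∨
      β * (single g₁ a + single g₂ b + single g₃ c) = 0)
    (H : Subgroup G) (hx : g₁⁻¹ * g₂ ∈ H) (hy : g₁⁻¹ * g₃ ∈ H) (φ : H →* Q) :
    φ ⟨g₁⁻¹ * g₂, hx⟩ = 1 ∧ φ ⟨g₁⁻¹ * g₃, hy⟩ = 1 := by
  have hx1 : g₁⁻¹ * g₂ ≠ 1 := by
    intro h0; exact h12 (by rw [inv_mul_eq_one] at h0; exact h0)
  have hy1 : g₁⁻¹ * g₃ ≠ 1 := by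
    intro h0; exact h13 (by rw [inv_mul_eq_one] at h0; exact h0)
  rw [trinomial_factor] at h
  rcases h with h | h
  · have h' : (single 1 a + single (g₁⁻¹ * g₂) b + single (g₁⁻¹ * g₃) c) * β = 0 := by
      have := congrArg (fun z => (single g₁⁻¹ 1 : MonoidAlgebra K G) * z) h
      simp only [mul_zero, ← mul_assoc, single_mul_single, inv_mul_cancel, mul_one] at this
      rw [← MonoidAlgebra.one_def, one_mul] at this
      exact this
    exact hom_trivial_left hG _ _ a b c ha hx1 hy1 β hβ h' H hx hy φ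
  · rw [← mul_assoc] at h
    have hne : β * single g₁ 1 ≠ 0 := by
      intro h0
      apply hβ
      have := congrArg (fun z => z * (single g₁⁻¹ 1 : MonoidAlgebra K G)) h0
      simp only [zero_mul, mul_assoc, single_mul_single, mul_inv_cancel, mul_one] at this
      rw [← MonoidAlgebra.one_def, mul_one] at this
      exact this
    exact hom_trivial_right hG _ _ a b c ha hx1 hy1 _ hne h H hx hy φ

section coeffs

variable (g₁ g₂ g₃ : G) (h12 : g₁ ≠ g₂) (h13 : g₁ ≠ g₃) (h23 : g₂ ≠ g₃) (a b c : K)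

include h12 h13 in
lemma coeff_one :
    (single g₁ a + single g₂ b + single g₃ c : MonoidAlgebra K G).coeff g₁ = a := by
  simp [Finsupp.single_apply, h12.symm, h13.symm]

include h12 h23 in
lemma coeff_two :
    (single g₁ a + single g₂ b + single g₃ c : MonoidAlgebra K G).coeff g₂ = b := by
  simp [Finsupp.single_apply, h12, h23.symm]

include h13 h23 in
lemma coeff_three :
    (single g₁ a + single g₂ b + single g₃ c : MonoidAlgebra K G).coeff g₃ = c := by
  simp [Finsupp.single_apply, h13, h23]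

lemma support_subset [DecidableEq G] :
    (single g₁ a + single g₂ b + single g₃ c : MonoidAlgebra K G).coeff.support
      ⊆ {g₁, g₂, g₃} := by
  intro g hg
  rw [Finsupp.mem_support_iff] at hg
  by_contra hmem
  simp only [Finset.mem_insert, Finset.mem_singleton, not_or] at hmem
  apply hg
  simp only [MonoidAlgebra.coeff_add, MonoidAlgebra.coeff_single, Finsupp.coe_add, Pi.add_apply]
  rw [Finsupp.single_eq_of_ne hmem.1, Finsupp.single_eq_of_ne hmem.2.1,
    Finsupp.single_eq_of_ne hmem.2.2]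
  simp

include h12 h13 h23 in
lemma support_eq [DecidableEq G] (ha : a ≠ 0) (hb : b ≠ 0) (hc : c ≠ 0) :
    (single g₁ a + single g₂ b + single g₃ c : MonoidAlgebra K G).coeff.support
      = {g₁, g₂, g₃} := by
  apply Finset.Subset.antisymm (support_subset g₁ g₂ g₃ a b c)
  intro g hg
  simp only [Finset.mem_insert, Finset.mem_singleton] at hg
  rw [Finsupp.mem_support_iff]
  rcases hg with rfl | rfl | rfl
  · rw [coeff_one _ _ _ h12 h13]; exact ha
  · rw [coeff_two _ _ _ h12 h23]; exact hb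
  · rw [coeff_three _ _ _ h13 h23]; exact hc

end coeffs

/-- All valuations take the same value on the three coefficients of a three-term zero divisor. -/
theorem valuation_eq (hG : ∀ g : G, ∀ n : ℕ, 0 < n → g ^ n = 1 → g = 1)
    {Γ₀ : Type*} [LinearOrderedCommGroupWithZero Γ₀] (v : Valuation K Γ₀)
    (g₁ g₂ g₃ : G) (h12 : g₁ ≠ g₂) (h13 : g₁ ≠ g₃) (h23 : g₂ ≠ g₃) (a b c : K) (ha : a ≠ 0)
    (β : MonoidAlgebra K G) (hβ : β ≠ 0)
    (h : (single g₁ a + single g₂ b + single g₃ c) * β = 0 ∨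
      β * (single g₁ a + single g₂ b + single g₃ c) = 0) :
    v a = v b ∧ v a = v c := by
  classical
  set α : MonoidAlgebra K G := single g₁ a + single g₂ b + single g₃ c with hα
  have hαne : α ≠ 0 := by
    intro h0
    have := coeff_one g₁ g₂ g₃ h12 h13 a b c
    rw [← hα, h0] at this
    exact ha (by simpa using this.symm)
  have hcard := card_valuation hG v α β hαne hβ h
  have hsub : (α.coeff.support.filter (fun i => ∀ j, v (α.coeff j) ≤ v (α.coeff i)))
      ⊆ ({g₁, g₂, g₃} : Finset G) :=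
    (Finset.filter_subset _ _).trans (support_subset g₁ g₂ g₃ a b c)
  have heq := Finset.eq_of_subset_of_card_le hsub (Finset.card_le_three.trans hcard)
  have hmem : ∀ g ∈ ({g₁, g₂, g₃} : Finset G), ∀ j, v (α.coeff j) ≤ v (α.coeff g) := by
    intro g hg
    rw [← heq] at hg
    exact (Finset.mem_filter.mp hg).2
  have e1 : α.coeff g₁ = a := coeff_one g₁ g₂ g₃ h12 h13 a b c
  have e2 : α.coeff g₂ = b := coeff_two g₁ g₂ g₃ h12 h23 a b c
  have e3 : α.coeff g₃ = c := coeff_three g₁ g₂ g₃ h13 h23 a b c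
  have m1 := hmem g₁ (by simp)
  have m2 := hmem g₂ (by simp)
  have m3 := hmem g₃ (by simp)
  constructor
  · apply le_antisymm
    · have := m2 g₁; rwa [e1, e2] at this
    · have := m1 g₂; rwa [e1, e2] at this
  · apply le_antisymm
    · have := m3 g₁; rwa [e1, e3] at this
    · have := m1 g₃; rwa [e1, e3] at this

/-- If all valuations agree on two nonzero elements then their quotient is integral over `ℤ`. -/
lemma isIntegral_div_of_valuation (a b : K) (ha : a ≠ 0)
    (h : ∀ V : ValuationSubring K, V.valuation a = V.valuation b) : IsIntegral ℤ (b / a) := by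
  by_contra hnot
  have hmem : b / a ∉ (integralClosure ℤ K).toSubring := hnot
  obtain ⟨V, -, hV⟩ := Subring.exists_le_valuationSubring_of_isIntegrallyClosedIn hmem
  apply hV
  rw [← ValuationSubring.valuation_le_one_iff, map_div₀, h V]
  have : V.valuation b ≠ 0 := by
    rw [← h V, Valuation.ne_zero_iff]; exact ha
  rw [div_self this]

end Vale.Agent.Lib.P201
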